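import Vale.Agent.H49.ArchCase

/-!
# P184 (the `ℓ¹`-Bass conjecture): linear groups over arbitrary fields, non-quasi-unipotent classes

Let `G` be an arbitrary group and `e` an idempotent `q × q` matrix over `ℓ¹(G)`, given by its
entries `e i j : G → ℂ` (absolutely summable, with `e * e = e` for the convolution product).
Let `K` be any field, `ρ` a representation of `G` by `n × n` matrices over `K` (a monoid
homomorphism from `G` to the matrices) and `x ∈ G`.  If the characteristic polynomial of `ρ x`
has a root `μ` in the algebraic closure of `K` that is not a root of unity, then the
Hattori-Stallings coefficient `τ_C(e) = ∑_{y ∈ C} ∑_i e i i y` at the conjugacy class `C` of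
`x` vanishes.

So for every linear group over every field, the trace of an idempotent matrix over `ℓ¹(G)` can
be nonzero only at classes of quasi-unipotent elements (all eigenvalues roots of unity); in
positive characteristic these are exactly the elements of finite order.

Proof.  Three cases for the eigenvalue `μ ≠ 0` (the case `μ = 0` is formal).

* `μ` or `μ⁻¹` is not integral over `ℤ` (in particular if `μ` is transcendental over the prime
  field; in positive characteristic this is the only case).  Then the algebraic closure `L` of
  `K` carries a real-valued absolute value `v` with `v μ ≠ 1`: take a transcendence basis and a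
  valuation ring of `L` dominating a suitable local ring (Chevalley); because `L` is algebraic
  over the field generated by the transcendence basis, its value group is archimedean.
* `μ` is an algebraic unit in characteristic zero and not a root of unity.  By Kronecker's
  theorem some embedding of `ℚ(μ)` into `ℂ` sends `μ` off the unit circle.  The entries of `e`
  have countable support, so `e` lives on a countable subgroup `G₀`, and `τ_C(e)` is the sum of
  the coefficients of `e` at the `G₀`-classes contained in `C`.  The matrix entries of `ρ` on
  `G₀` together with `μ` generate a countable field, which embeds into `ℂ` compatibly with the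
  chosen embedding of `ℚ(μ)` (`ℂ` has infinite transcendence degree and is algebraically closed);
  the usual absolute value of `ℂ` then does not take the value `1` at the image of `μ`.

In both cases the centralizer of `x` acts on the `μ`-eigenspace of `ρ x`, and the logarithm of
the absolute value of the determinant of this action is a real character of the centralizer,
nonzero at `x` and dominated by the logarithmic size of the matrices `ρ g`; the vanishing
criterion for characters dominated by a length function (a path of idempotents in a twisted
`ℓ¹` crossed product) applies.
-/

namespace Vale.Agent.Results.P184.A_AllFieldsEigenvalueVanish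

open scoped BigOperators

open Vale.Agent.H49

theorem result {G : Type*} [Group G] (q : ℕ) (e : Fin q → Fin q → G → ℂ)
    (hsum : ∀ i j, Summable fun g => ‖e i j g‖)
    (hidem : ∀ i j g, ∑ k, ∑' h, e i k h * e k j (h⁻¹ * g) = e i j g)
    {K : Type*} [Field K] (n : ℕ) (ρ : G →* Matrix (Fin n) (Fin n) K) (x : G)
    (μ : AlgebraicClosure K) (hroot : Polynomial.aeval μ (ρ x).charpoly = 0)
    (hμ : ∀ m : ℕ, 0 < m → μ ^ m ≠ 1) :
    ∑' y : conjugatesOf x, ∑ i, e i i y = 0 :=
  tsum_eq_zero_of_eigenvalue_not_rootOfUnity q e hsum hidem n ρ x μ hroot hμ

end Vale.Agent.Results.P184.A_AllFieldsEigenvalueVanish
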