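import Vale.Agent.H49.FullClass

/-!
# P184 (the `ℓ¹`-Bass conjecture): the conjecture for a class of groups

Let `G` be a group with only finitely many conjugacy classes of finite-order elements (no
countability or finite generation is assumed).  Let `ρ` be a representation of `G` by `n × n`
matrices over a field `K`, and let `G` act by isometries on a (pseudo)metric space `X`
satisfying the four-point inequality

  `d(p,s)² + d(r,t)² ≤ d(p,r)² + d(r,s)² + d(s,t)² + d(t,p)²`,

which holds in every `CAT(0)` space (`quad_of_midpoint_CN` below derives it from the inequality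
(CN) of Bruhat and Tits when midpoints exist).  Suppose every `x ∈ G` of infinite order satisfies
at least one of:

* `K` has prime characteristic and `ρ x` has infinite order;
* no positive power of `ρ x` is unipotent (`(ρ x)ᵐ - 1` is not nilpotent for any `m ≥ 1`);
* `x` has an axis in `X`: some point `o` has `d(o, x o) > 0` and `d(o, xᵏ o) = k d(o, x o)` for
  all `k`.

Then for every idempotent `q × q` matrix `e` over `ℓ¹(G)` (entries `e i j : G → ℂ` absolutely
summable, `e * e = e` for the convolution product) there is a finite set `F` of conjugacy classes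
of finite-order elements such that the Hattori-Stallings coefficient
`τ_C(e) = ∑_{y ∈ C} ∑_i e i i y` vanishes for every conjugacy class `C ∉ F`: the conclusion of
the `ℓ¹`-Bass conjecture holds for `G`.  One may take for `ρ` the trivial representation, or for
`X` a one-point space, so the linear and the geometric conditions can also be used alone.

Proof.  `F` is the set of all classes of finite-order elements; at a class of elements of
infinite order the coefficient vanishes by the criterion for eigenvalues that are not roots of
unity (first two conditions: a matrix no power of which is unipotent has an eigenvalue that is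
not a root of unity; in positive characteristic a matrix of infinite order has an eigenvalue
that is transcendental over the prime field) or by the criterion for isometries with an axis
(third condition).  Both rest on the vanishing criterion for characters of the centralizer
dominated by a length function.
-/

namespace Vale.Agent.Results.P184.A_BassForLinearOrCat0Class

open scoped BigOperators

open Vale.Agent.H49

/-- The four-point inequality used in `result` holds whenever midpoints exist and the inequality
(CN) of Bruhat and Tits holds, in particular in every `CAT(0)` space. -/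
theorem quad_of_midpoint_CN {X : Type*} [PseudoMetricSpace X]
    (hmid : ∀ r t : X, ∃ m : X, dist r m = dist r t / 2 ∧ dist m t = dist r t / 2)
    (hCN : ∀ p r t m : X, dist r m = dist r t / 2 → dist m t = dist r t / 2 →
      dist p m ^ 2 ≤ (dist p r ^ 2 + dist p t ^ 2) / 2 - dist r t ^ 2 / 4)
    (p r s t : X) :
    dist p s ^ 2 + dist r t ^ 2 ≤ dist p r ^ 2 + dist r s ^ 2 + dist s t ^ 2 + dist t p ^ 2 := by
  obtain ⟨m, hm1, hm2⟩ := hmid r t
  have h1 := hCN p r t m hm1 hm2
  have h2 := hCN s r t m hm1 hm2
  have h3 : dist p s ≤ dist p m + dist s m := by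
    have := dist_triangle p m s
    rwa [dist_comm m s] at this
  have h4 : dist p s ^ 2 ≤ 2 * dist p m ^ 2 + 2 * dist s m ^ 2 := by
    have h5 : dist p s ^ 2 ≤ (dist p m + dist s m) ^ 2 :=
      pow_le_pow_left₀ dist_nonneg h3 2
    nlinarith [sq_nonneg (dist p m - dist s m)]
  rw [dist_comm r s, dist_comm t p]
  linarith

theorem result {G : Type*} [Group G] (q : ℕ) (e : Fin q → Fin q → G → ℂ)
    (hsum : ∀ i j, Summable fun g => ‖e i j g‖)
    (hidem : ∀ i j g, ∑ k, ∑' h, e i k h * e k j (h⁻¹ * g) = e i j g)
    {K : Type*} [Field K] (n : ℕ) (ρ : G →* Matrix (Fin n) (Fin n) K)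
    {X : Type*} [PseudoMetricSpace X] [MulAction G X]
    (hiso : ∀ (g : G) (p r : X), dist (g • p) (g • r) = dist p r)
    (hquad : ∀ p r s t : X,
      dist p s ^ 2 + dist r t ^ 2 ≤ dist p r ^ 2 + dist r s ^ 2 + dist s t ^ 2 + dist t p ^ 2)
    (hG : ∀ x : G, ¬ IsOfFinOrder x →
      ((∃ p : ℕ, p.Prime ∧ CharP K p) ∧ ¬ IsOfFinOrder (ρ x)) ∨
      (∀ m : ℕ, 0 < m → ¬ IsNilpotent (ρ x ^ m - 1)) ∨
      (∃ o : X, 0 < dist o (x • o) ∧ ∀ k : ℕ, dist o (x ^ k • o) = k * dist o (x • o)))
    (hfin : {C : ConjClasses G | ∀ g ∈ C.carrier, IsOfFinOrder g}.Finite) :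
    ∃ F : Finset (ConjClasses G), (∀ C ∈ F, ∀ g ∈ C.carrier, IsOfFinOrder g) ∧
      ∀ C : ConjClasses G, C ∉ F → ∑' y : C.carrier, ∑ i, e i i y = 0 :=
  exists_finset_finOrder_classes q e hsum hidem n ρ hiso hquad hG hfin

end Vale.Agent.Results.P184.A_BassForLinearOrCat0Class
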