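import Vale.Agent.H49.Cat0

/-!
# P184 (the `ℓ¹`-Bass conjecture): the conjecture for `CAT(0)` groups

Let a group `G` act by isometries on a nonempty (pseudo)metric space `X` such that

* every two points `r`, `t` have a midpoint `m` (`d(r,m) = d(m,t) = d(r,t)/2`), and the
  inequality (CN) of Bruhat and Tits holds,
  `d(p,m)² ≤ (d(p,r)² + d(p,t)²)/2 - d(r,t)²/4` for every midpoint `m` of `r` and `t`
  (these two conditions hold in every `CAT(0)` space and characterise them among complete metric
  spaces; completeness is not used here);
* the action is metrically proper: for every point `z` and every radius `R` only finitely many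
  `g ∈ G` satisfy `d(g z, z) ≤ R`;
* the action is cocompact: there is a compact set `K` meeting every orbit.

These are the groups acting properly and cocompactly by isometries on a `CAT(0)` space.  Then for
every idempotent `q × q` matrix `e` over `ℓ¹(G)` (entries `e i j : G → ℂ` absolutely summable,
`e * e = e` for the convolution product) there is a finite set `F` of conjugacy classes of
finite-order elements such that the Hattori-Stallings coefficient
`τ_C(e) = ∑_{y ∈ C} ∑_i e i i y` vanishes for every conjugacy class `C ∉ F`: the conclusion of
the `ℓ¹`-Bass conjecture holds for `G`.

Proof.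
1. Cocompactness and properness make the displacement function `z ↦ d(z, x z)` of every `x ∈ G`
   attain its minimum: the conjugates `g x g⁻¹` that move a point of `K` by at most a fixed
   amount form a finite set, and each of them attains its minimum on the compact set `K`.
2. By (CN), a point `o` of minimal displacement satisfies `d(o, xⁿ o) = n d(o, x o)` for all `n`
   (first `d(o, x² o) = 2 d(o, x o)`, using the midpoint of `o` and `x o`, then induction).
3. Hence an element of finite order has a point of displacement zero; translating it into `K`
   shows that every class of finite-order elements meets a fixed finite set, so there are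
   finitely many such classes: `F` is the set of all of them.
4. An element `x` of infinite order has positive minimal displacement (otherwise infinitely many
   powers of `x` would move a point by distance zero), so it has an axis, and (CN) implies the
   four-point inequality `d(p,s)² + d(r,t)² ≤ d(p,r)² + d(r,s)² + d(s,t)² + d(t,p)²`.  The
   Busemann function of the axis is then additive on the centralizer of `x`, bounded by the
   displacement `d(g o, o)` and nonzero at `x`, and the vanishing criterion for characters of
   the centralizer dominated by a length function (a path of idempotents in a twisted `ℓ¹`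
   crossed product) gives `τ_C(e) = 0` at the class `C` of `x`.
-/

namespace Vale.Agent.Results.P184.A_Cat0GroupsBass

open scoped BigOperators

open Vale.Agent.H49

theorem result {G : Type*} [Group G] (q : ℕ) (e : Fin q → Fin q → G → ℂ)
    (hsum : ∀ i j, Summable fun g => ‖e i j g‖)
    (hidem : ∀ i j g, ∑ k, ∑' h, e i k h * e k j (h⁻¹ * g) = e i j g)
    {X : Type*} [PseudoMetricSpace X] [Nonempty X] [MulAction G X]
    (hiso : ∀ (g : G) (p r : X), dist (g • p) (g • r) = dist p r)
    (hmid : ∀ r t : X, ∃ m : X, dist r m = dist r t / 2 ∧ dist m t = dist r t / 2)
    (hCN : ∀ p r t m : X, dist r m = dist r t / 2 → dist m t = dist r t / 2 →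
      dist p m ^ 2 ≤ (dist p r ^ 2 + dist p t ^ 2) / 2 - dist r t ^ 2 / 4)
    (hproper : ∀ (z : X) (R : ℝ), {g : G | dist (g • z) z ≤ R}.Finite)
    (hcocompact : ∃ K : Set X, IsCompact K ∧ ∀ z : X, ∃ g : G, g • z ∈ K) :
    ∃ F : Finset (ConjClasses G), (∀ C ∈ F, ∀ g ∈ C.carrier, IsOfFinOrder g) ∧
      ∀ C : ConjClasses G, C ∉ F → ∑' y : C.carrier, ∑ i, e i i y = 0 :=
  exists_finset_of_proper_cocompact q e hsum hidem hiso hmid hCN hproper hcocompact

end Vale.Agent.Results.P184.A_Cat0GroupsBass
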