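import Vale.Agent.H49.Cat0
import Vale.Agent.H49.ArchCase
import Vale.Agent.H49.Explicit
import Vale.Agent.H49.Length

/-!
# P184 (the `ℓ¹`-Bass conjecture): `CAT(0)` groups, linear groups and the general criterion

One statement that collects three results about an idempotent `q × q` matrix `e` over `ℓ¹(G)`
(entries `e i j : G → ℂ` absolutely summable, `e * e = e` for the convolution product) and its
Hattori-Stallings coefficients `τ_C(e) = ∑_{y ∈ C} ∑_i e i i y`, for an arbitrary group `G`.
The space `X` with its action of `G` and the representation `ρ` over the field `K` are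
parameters of the whole statement and are independent of each other (`X` may be a point and `ρ`
trivial), so each of the three parts can be used alone.

1. (`CAT(0)` groups.)  If `G` acts by isometries on a nonempty (pseudo)metric space `X` in which
   every two points have a midpoint and the inequality (CN) of Bruhat and Tits holds, the action
   being metrically proper (for every point `z` and radius `R` only finitely many `g` satisfy
   `d(g z, z) ≤ R`) and cocompact (a compact set meets every orbit), then there is a finite set
   `F` of conjugacy classes of finite-order elements with `τ_C(e) = 0` for every class `C ∉ F`: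
   the conclusion of the `ℓ¹`-Bass conjecture holds for `G`.
2. (Linear groups.)  If `ρ` is a representation of `G` by `n × n` matrices over a field `K` of any
   characteristic and the characteristic polynomial of `ρ x` has a root in the algebraic closure
   of `K` that is not a root of unity, then `τ_C(e) = 0` at the conjugacy class `C` of `x`.
3. (The criterion.)  If `ℓ : G → ℝ` is subadditive, `H` is a subgroup containing `x` whose
   intersection with the centralizer of `x` has finite index in that centralizer, and `φ : G → ℝ`
   is additive on `H`, bounded by `ℓ` on `H` and nonzero at `x`, then `τ_C(e) = 0` at the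
   conjugacy class `C` of `x`.

Each part is proved separately in this folder (`A_Cat0GroupsBass`, `A_AllFieldsEigenvalueVanish`,
`A_CentralizerCharacterVanish`); parts 1 and 2 are deduced from part 3, whose proof is a path of
idempotents in a twisted `ℓ¹` crossed product.
-/

namespace Vale.Agent.Results.P184.A_Cat0LinearAndCriterion

open scoped BigOperators

open Vale.Agent.H49

theorem result {G : Type*} [Group G] (q : ℕ) (e : Fin q → Fin q → G → ℂ)
    (hsum : ∀ i j, Summable fun g => ‖e i j g‖)
    (hidem : ∀ i j g, ∑ k, ∑' h, e i k h * e k j (h⁻¹ * g) = e i j g)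
    {X : Type*} [PseudoMetricSpace X] [Nonempty X] [MulAction G X]
    {K : Type*} [Field K] (n : ℕ) (ρ : G →* Matrix (Fin n) (Fin n) K) :
    ((∀ (g : G) (p r : X), dist (g • p) (g • r) = dist p r) →
      (∀ r t : X, ∃ m : X, dist r m = dist r t / 2 ∧ dist m t = dist r t / 2) →
      (∀ p r t m : X, dist r m = dist r t / 2 → dist m t = dist r t / 2 →
        dist p m ^ 2 ≤ (dist p r ^ 2 + dist p t ^ 2) / 2 - dist r t ^ 2 / 4) →
      (∀ (z : X) (R : ℝ), {g : G | dist (g • z) z ≤ R}.Finite) →
      (∃ S : Set X, IsCompact S ∧ ∀ z : X, ∃ g : G, g • z ∈ S) →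
      ∃ F : Finset (ConjClasses G), (∀ C ∈ F, ∀ g ∈ C.carrier, IsOfFinOrder g) ∧
        ∀ C : ConjClasses G, C ∉ F → ∑' y : C.carrier, ∑ i, e i i y = 0) ∧
    (∀ (x : G) (μ : AlgebraicClosure K), Polynomial.aeval μ (ρ x).charpoly = 0 →
      (∀ m : ℕ, 0 < m → μ ^ m ≠ 1) → ∑' y : conjugatesOf x, ∑ i, e i i y = 0) ∧
    (∀ (x : G) (ℓ : G → ℝ), (∀ g h, ℓ (g * h) ≤ ℓ g + ℓ h) →
      ∀ H : Subgroup G, x ∈ H → (H.subgroupOf (Subgroup.centralizer {x})).FiniteIndex →
      ∀ φ : G → ℝ, (∀ a ∈ H, ∀ b ∈ H, φ (a * b) = φ a + φ b) →
      (∀ η ∈ H, |φ η| ≤ ℓ η) → φ x ≠ 0 → ∑' y : conjugatesOf x, ∑ i, e i i y = 0) := by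
  refine ⟨?_, ?_, ?_⟩
  · intro hiso hmid hCN hproper hcocompact
    exact exists_finset_of_proper_cocompact q e hsum hidem hiso hmid hCN hproper hcocompact
  · intro x μ hroot hμ
    exact tsum_eq_zero_of_eigenvalue_not_rootOfUnity q e hsum hidem n ρ x μ hroot hμ
  · intro x ℓ hℓ H hxH hfin φ hφ hφℓ hφx
    have h := K1.mtr_eq_zero_of_length x ℓ hℓ H hxH hfin φ hφ hφℓ hφx
      (L1.ofEntries e hsum) (L1.ofEntries_idem e hsum hidem)
    rw [L1.mtr_ofEntries] at h
    exact h

end Vale.Agent.Results.P184.A_Cat0LinearAndCriterion
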