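import Vale.Agent.H49.Explicit
import Vale.Agent.H49.Length

/-!
# P184 (the `ℓ¹`-Bass conjecture): vanishing of the Hattori-Stallings trace at every class
carrying a character dominated by a length function

Let `G` be an arbitrary group and `e` an idempotent `q × q` matrix over `ℓ¹(G)`, given by its
entries `e i j : G → ℂ` (absolutely summable, with `e * e = e` for the convolution product).
Let `x ∈ G`.  Suppose there are

* a subadditive function `ℓ : G → ℝ` (for instance a word length, or the displacement
  `g ↦ d(g o, o)` of an isometric action),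
* a subgroup `H` containing `x` whose intersection with the centralizer `Z(x)` of `x` has finite
  index in `Z(x)`,
* a function `φ` that is additive on `H`, satisfies `|φ η| ≤ ℓ η` for `η ∈ H`, and has
  `φ x ≠ 0`.

Then the Hattori-Stallings coefficient `τ_C(e) = ∑_{y ∈ C} ∑_i e i i y` at the conjugacy class
`C` of `x` vanishes.

The proof twists `ℓ¹(G)` into the `ℓ¹` crossed product of the bounded functions on the class of
`x` by a path of unitary cocycles built from `φ` and `ℓ`, and uses that the trace of an
idempotent is locally constant along a norm-continuous path of idempotents.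
-/

namespace Vale.Agent.Results.P184.A_CentralizerCharacterVanish

open scoped BigOperators

open Vale.Agent.H49

theorem result {G : Type*} [Group G] (q : ℕ) (e : Fin q → Fin q → G → ℂ)
    (hsum : ∀ i j, Summable fun g => ‖e i j g‖)
    (hidem : ∀ i j g, ∑ k, ∑' h, e i k h * e k j (h⁻¹ * g) = e i j g)
    (x : G) (ℓ : G → ℝ) (hℓ : ∀ g h, ℓ (g * h) ≤ ℓ g + ℓ h)
    (H : Subgroup G) (hxH : x ∈ H)
    (hfin : (H.subgroupOf (Subgroup.centralizer {x})).FiniteIndex)
    (φ : G → ℝ) (hφ : ∀ a ∈ H, ∀ b ∈ H, φ (a * b) = φ a + φ b)
    (hφℓ : ∀ η ∈ H, |φ η| ≤ ℓ η) (hφx : φ x ≠ 0) :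
    ∑' y : conjugatesOf x, ∑ i, e i i y = 0 := by
  have h := K1.mtr_eq_zero_of_length x ℓ hℓ H hxH hfin φ hφ hφℓ hφx
    (L1.ofEntries e hsum) (L1.ofEntries_idem e hsum hidem)
  rw [L1.mtr_ofEntries] at h
  exact h

end Vale.Agent.Results.P184.A_CentralizerCharacterVanish
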