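import Vale.Agent.H49.Explicit
import Vale.Agent.H49.Linear
import Vale.Agent.H49.CharPEigen

/-!
# P184 (the `ℓ¹`-Bass conjecture): linear groups in positive characteristic

Let `G` be an arbitrary group and `e` an idempotent `q × q` matrix over `ℓ¹(G)`, given by its
entries `e i j : G → ℂ` (absolutely summable, with `e * e = e` for the convolution product).
Let `K` be a field of prime characteristic `p`, let `ρ` be a representation of `G` by `n × n`
matrices over `K` (a monoid homomorphism from `G` to the matrices), and let `x ∈ G` be such that
the matrix `ρ x` has infinite order.  Then the Hattori-Stallings coefficient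
`τ_C(e) = ∑_{y ∈ C} ∑_i e i i y` at the conjugacy class `C` of `x` vanishes.

In particular, when `ρ` is injective (`G` is a linear group over a field of positive
characteristic) the trace of every idempotent matrix over `ℓ¹(G)` vanishes at the class of every
element of infinite order.

Proof.  Over the algebraic closure `L` of `K`, a matrix of infinite order has an eigenvalue `μ`
that is transcendental over the prime field (otherwise all eigenvalues are roots of unity and the
matrix has finite order).  Extend `{μ}` to a transcendence basis `t` of `L` over the prime field
and put `F₁ = 𝔽_p(t \ {μ})`.  A valuation ring of `L` that contains `F₁[μ]` and in which `μ` is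
not a unit (Chevalley) has an archimedean value group, because `L` is algebraic over `F₁(μ)`;
this gives a real-valued absolute value `v` on `L` with `v μ ≠ 1`.  The centralizer of `x` acts
on the `μ`-eigenspace of `ρ x`; the logarithm of `v` of the determinant of this action is a real
character of the centralizer, nonzero at `x`, and it is dominated by the logarithmic size of the
matrices `ρ g`, so the vanishing criterion for characters dominated by a length function applies.
-/

namespace Vale.Agent.Results.P184.A_CharPLinearVanish

open scoped BigOperators

open Vale.Agent.H49

theorem result {G : Type*} [Group G] (q : ℕ) (e : Fin q → Fin q → G → ℂ)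
    (hsum : ∀ i j, Summable fun g => ‖e i j g‖)
    (hidem : ∀ i j g, ∑ k, ∑' h, e i k h * e k j (h⁻¹ * g) = e i j g)
    {K : Type*} [Field K] (p : ℕ) [Fact p.Prime] [CharP K p] (n : ℕ)
    (ρ : G →* Matrix (Fin n) (Fin n) K) (x : G) (hx : ¬ IsOfFinOrder (ρ x)) :
    ∑' y : conjugatesOf x, ∑ i, e i i y = 0 := by
  obtain ⟨μ, w, v, hw, hμ, hv⟩ := RankOne.exists_eigen_absVal p (ρ x) hx
  have h := K1.mtr_eq_zero_of_eigenvalue v
    (((algebraMap K (AlgebraicClosure K)).mapMatrix.toMonoidHom).comp ρ) x μ w hw hμ hv
    (L1.ofEntries e hsum) (L1.ofEntries_idem e hsum hidem)
  rw [L1.mtr_ofEntries] at h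
  exact h

end Vale.Agent.Results.P184.A_CharPLinearVanish
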