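import Vale.Agent.H49.Explicit
import Vale.Agent.H49.Linear
import Vale.Agent.H49.EigenAbs

/-!
# P184 (the `ℓ¹`-Bass conjecture): eigenvalues at classes with nonzero trace are algebraic units

Let `G` be an arbitrary group and `e` an idempotent `q × q` matrix over `ℓ¹(G)`, given by its
entries `e i j : G → ℂ` (absolutely summable, with `e * e = e` for the convolution product).
Let `K` be any field, `ρ` a representation of `G` by `n × n` matrices over `K` (a monoid
homomorphism from `G` to the matrices) and `x ∈ G`.  If the characteristic polynomial of `ρ x`
has a root `μ` in the algebraic closure of `K` such that `μ` or `μ⁻¹` is not integral over `ℤ`,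
then the Hattori-Stallings coefficient `τ_C(e) = ∑_{y ∈ C} ∑_i e i i y` at the conjugacy class
`C` of `x` vanishes.

Equivalently: if `τ_C(e) ≠ 0` at the class of `x`, then under every finite-dimensional linear
representation of `G` over every field all eigenvalues of `x` are units of the ring of algebraic
integers.  In positive characteristic these are roots of unity.

Proof.  The algebraic closure `L` of `K` carries a real-valued absolute value `v` with
`v μ ≠ 1`.  If `μ` is transcendental over the prime field `k`, extend `{μ}` to a transcendence
basis `t` and take a valuation ring of `L` containing `k(t \ {μ})[μ]` in which `μ` is not a unit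
(Chevalley); it is archimedean relative to `μ` because `L` is algebraic over `k(t)`.  If `μ` is
algebraic over `ℚ` and, say, `μ` is not integral, then `ν = μ⁻¹` is not a unit of `B = ℤ[ν]`;
take a maximal ideal `𝔭 ∋ ν` of `B`, a transcendence basis `t` of `L` over `ℤ`, and a valuation
ring of `L` dominating the localization of `B[t]` at the prime `𝔭 B[t]`; it is archimedean
relative to the integer prime below `𝔭`.  Then the centralizer of `x` acts on the
`μ`-eigenspace of `ρ x`, and the logarithm of `v` of the determinant of this action is a real
character of the centralizer, nonzero at `x` and dominated by the logarithmic size of the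
matrices `ρ g`; the vanishing criterion for characters dominated by a length function applies.
-/

namespace Vale.Agent.Results.P184.A_IntegralEigenvalueVanish

open scoped BigOperators

open Vale.Agent.H49

theorem result {G : Type*} [Group G] (q : ℕ) (e : Fin q → Fin q → G → ℂ)
    (hsum : ∀ i j, Summable fun g => ‖e i j g‖)
    (hidem : ∀ i j g, ∑ k, ∑' h, e i k h * e k j (h⁻¹ * g) = e i j g)
    {K : Type*} [Field K] (n : ℕ) (ρ : G →* Matrix (Fin n) (Fin n) K) (x : G)
    (μ : AlgebraicClosure K) (hroot : Polynomial.aeval μ (ρ x).charpoly = 0)
    (hμ : ¬ IsIntegral ℤ μ ∨ ¬ IsIntegral ℤ μ⁻¹) :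
    ∑' y : conjugatesOf x, ∑ i, e i i y = 0 := by
  obtain ⟨w, v, hw, hev, hv⟩ := RankOne.exists_eigen_absVal_of_not_isIntegral (ρ x) μ hroot hμ
  have h := K1.mtr_eq_zero_of_eigenvalue v
    (((algebraMap K (AlgebraicClosure K)).mapMatrix.toMonoidHom).comp ρ) x μ w hw hev hv
    (L1.ofEntries e hsum) (L1.ofEntries_idem e hsum hidem)
  rw [L1.mtr_ofEntries] at h
  exact h

end Vale.Agent.Results.P184.A_IntegralEigenvalueVanish
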