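import Vale.Agent.H49.Explicit
import Vale.Agent.H49.Linear

/-!
# P184 (the `ℓ¹`-Bass conjecture): linear representations

Let `G` be an arbitrary group and `e` an idempotent `q × q` matrix over `ℓ¹(G)`, given by its
entries `e i j : G → ℂ` (absolutely summable, with `e * e = e` for the convolution product).
Let `ρ` be a representation of `G` by `n × n` matrices over a field `K` (a monoid homomorphism
from `G` to the matrices), let `v` be an absolute value on `K`, and let `x ∈ G` be such that
`ρ x` has an eigenvalue `μ ∈ K` (with eigenvector `w ≠ 0`) with `v μ ≠ 1`.  Then the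
Hattori-Stallings coefficient `τ_C(e) = ∑_{y ∈ C} ∑_i e i i y` at the conjugacy class `C` of `x`
vanishes.

The centralizer of `x` acts on the `μ`-eigenspace of `ρ x`; the logarithm of the absolute value
of the determinant of this action is a real character of the centralizer, nonzero at `x`, and it
is dominated by the logarithmic size of the matrices `ρ g`.
-/

namespace Vale.Agent.Results.P184.A_LinearEigenvalueVanish

open scoped BigOperators

open Vale.Agent.H49

theorem result {G : Type*} [Group G] (q : ℕ) (e : Fin q → Fin q → G → ℂ)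
    (hsum : ∀ i j, Summable fun g => ‖e i j g‖)
    (hidem : ∀ i j g, ∑ k, ∑' h, e i k h * e k j (h⁻¹ * g) = e i j g)
    {K : Type*} [Field K] (v : AbsoluteValue K ℝ) (n : ℕ)
    (ρ : G →* Matrix (Fin n) (Fin n) K) (x : G) (μ : K) (w : Fin n → K) (hw : w ≠ 0)
    (hμ : (ρ x).mulVec w = μ • w) (hv : v μ ≠ 1) :
    ∑' y : conjugatesOf x, ∑ i, e i i y = 0 := by
  have h := K1.mtr_eq_zero_of_eigenvalue v ρ x μ w hw hμ hv
    (L1.ofEntries e hsum) (L1.ofEntries_idem e hsum hidem)
  rw [L1.mtr_ofEntries] at h
  exact h

end Vale.Agent.Results.P184.A_LinearEigenvalueVanish
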