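import Vale.Agent.H49.Explicit

/-!
# P184 (the `ℓ¹`-Bass conjecture): finiteness and torsion of the support of the
Hattori-Stallings trace in every virtual abelianization

Let `G` be an arbitrary group and `e` an idempotent `q × q` matrix over `ℓ¹(G)`, given by its
entries `e i j : G → ℂ` (absolutely summable, with `e * e = e` for the convolution product).
Let `K` be a subgroup of finite index and `ψ` a homomorphism from `K` to an abelian group `A`
(written additively).  Then there is a finite set `Φ` of elements of finite order of `A` such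
that `ψ x ∈ Φ` for every `x ∈ K` whose `G`-conjugacy class `C` has nonzero Hattori-Stallings
coefficient `τ_C(e) = ∑_{y ∈ C} ∑_i e i i y`.
-/

namespace Vale.Agent.Results.P184.A_VirtualAbelianSupport

open scoped BigOperators

open Vale.Agent.H49

theorem result {G : Type*} [Group G] (q : ℕ) (e : Fin q → Fin q → G → ℂ)
    (hsum : ∀ i j, Summable fun g => ‖e i j g‖)
    (hidem : ∀ i j g, ∑ k, ∑' h, e i k h * e k j (h⁻¹ * g) = e i j g)
    (K : Subgroup G) [K.FiniteIndex] {A : Type*} [AddCommGroup A]
    (ψ : K → A) (hψ : ∀ a b : K, ψ (a * b) = ψ a + ψ b) :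
    ∃ Φ : Finset A, (∀ a ∈ Φ, IsOfFinAddOrder a) ∧
      ∀ x : K, (∑' y : conjugatesOf (x : G), ∑ i, e i i y) ≠ 0 → ψ x ∈ Φ := by
  obtain ⟨Φ, hΦ, hsupp⟩ := L1.exists_finite_torsion_support_finiteIndex K ψ hψ
    (L1.ofEntries e hsum) (L1.ofEntries_idem e hsum hidem)
  refine ⟨Φ, hΦ, fun x hx => hsupp x ?_⟩
  rw [L1.mtr_ofEntries]
  exact hx

end Vale.Agent.Results.P184.A_VirtualAbelianSupport
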