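import Vale.Agent.H49.Axis

/-!
# P184 (the `ℓ¹`-Bass conjecture): isometric actions on `CAT(0)` spaces, classes of isometries
with an axis

Let `G` be an arbitrary group and `e` an idempotent `q × q` matrix over `ℓ¹(G)`, given by its
entries `e i j : G → ℂ` (absolutely summable, with `e * e = e` for the convolution product).
Let `G` act by isometries on a (pseudo)metric space `X` satisfying the four-point inequality

  `d(p,s)² + d(r,t)² ≤ d(p,r)² + d(r,s)² + d(s,t)² + d(t,p)²`

(the squares of the two diagonals of a quadrilateral against the squares of its four sides).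
Every `CAT(0)` space satisfies it: `quad_of_midpoint_CN` below derives it from the inequality
(CN) of Bruhat and Tits when midpoints exist.  No properness or cocompactness of the action is
assumed.  Let `x ∈ G` and suppose that some point `o` satisfies `d(o, x o) > 0` and
`d(o, xⁿ o) = n d(o, x o)` for all `n`: the orbit of `o` under the powers of `x` runs along a
geodesic line, as for every point on an axis of a hyperbolic isometry.  Then the
Hattori-Stallings coefficient `τ_C(e) = ∑_{y ∈ C} ∑_i e i i y` at the conjugacy class `C` of `x`
vanishes.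

Proof.  With `a = d(o, x o)`, the Busemann function `b z = lim_n (d(z, xⁿ o) - n a)` is
`1`-Lipschitz.  If `g` commutes with `x` then `g⁻¹ o` is again a point with the same property,
and the four-point inequality for the quadrilateral `o, xⁿ o, xⁿ o', o'` (two sides of length
`n a`, two of length `d(o, o')`) shows that the Busemann functions of `o` and `o'` differ by a
constant.  Hence `b (g z) = b z + b (g o)` for `g` in the centralizer of `x`: the function
`g ↦ b (g o)` is additive on the centralizer, is bounded by the displacement `d(g o, o)`, which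
is subadditive on `G`, and equals `-a ≠ 0` at `x`.  The vanishing criterion for characters
dominated by a length function applies.
-/

namespace Vale.Agent.Results.P184.B_AxisIsometryVanish

open scoped BigOperators

open Vale.Agent.H49

/-- The four-point inequality used in `result` holds whenever midpoints exist and the inequality
(CN) of Bruhat and Tits holds, in particular in every `CAT(0)` space. -/
theorem quad_of_midpoint_CN {X : Type*} [PseudoMetricSpace X]
    (hmid : ∀ r t : X, ∃ m : X, dist r m = dist r t / 2 ∧ dist m t = dist r t / 2)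
    (hCN : ∀ p r t m : X, dist r m = dist r t / 2 → dist m t = dist r t / 2 →
      dist p m ^ 2 ≤ (dist p r ^ 2 + dist p t ^ 2) / 2 - dist r t ^ 2 / 4)
    (p r s t : X) :
    dist p s ^ 2 + dist r t ^ 2 ≤ dist p r ^ 2 + dist r s ^ 2 + dist s t ^ 2 + dist t p ^ 2 := by
  obtain ⟨m, hm1, hm2⟩ := hmid r t
  have h1 := hCN p r t m hm1 hm2
  have h2 := hCN s r t m hm1 hm2
  have h3 : dist p s ≤ dist p m + dist s m := by
    have := dist_triangle p m s
    rwa [dist_comm m s] at this
  have h4 : dist p s ^ 2 ≤ 2 * dist p m ^ 2 + 2 * dist s m ^ 2 := by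
    have h5 : dist p s ^ 2 ≤ (dist p m + dist s m) ^ 2 :=
      pow_le_pow_left₀ dist_nonneg h3 2
    nlinarith [sq_nonneg (dist p m - dist s m)]
  rw [dist_comm r s, dist_comm t p]
  linarith

theorem result {G : Type*} [Group G] (q : ℕ) (e : Fin q → Fin q → G → ℂ)
    (hsum : ∀ i j, Summable fun g => ‖e i j g‖)
    (hidem : ∀ i j g, ∑ k, ∑' h, e i k h * e k j (h⁻¹ * g) = e i j g)
    {X : Type*} [PseudoMetricSpace X] [MulAction G X]
    (hiso : ∀ (g : G) (p r : X), dist (g • p) (g • r) = dist p r)
    (hquad : ∀ p r s t : X,
      dist p s ^ 2 + dist r t ^ 2 ≤ dist p r ^ 2 + dist r s ^ 2 + dist s t ^ 2 + dist t p ^ 2)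
    (x : G) (o : X) (hpos : 0 < dist o (x • o))
    (haxis : ∀ n : ℕ, dist o (x ^ n • o) = n * dist o (x • o)) :
    ∑' y : conjugatesOf x, ∑ i, e i i y = 0 :=
  tsum_eq_zero_of_axis q e hsum hidem hiso hquad x o hpos haxis

end Vale.Agent.Results.P184.B_AxisIsometryVanish
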