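import Vale.Agent.H49.Explicit
import Vale.Agent.H49.Undistorted

/-!
# P184 (the `ℓ¹`-Bass conjecture): the Hattori-Stallings trace vanishes at every undistorted
element whose centralizer is virtually cyclic

Let `G` be an arbitrary group and `e` an idempotent `q × q` matrix over `ℓ¹(G)`, given by its
entries `e i j : G → ℂ` (absolutely summable, with `e * e = e` for the convolution product).
Let `ℓ : G → ℝ` be subadditive (for instance the word length of a generating set, or the
displacement `g ↦ d(g o, o)` of an isometric action of `G` on a metric space), and let `x ∈ G`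
satisfy `ℓ (x ^ n) ≥ c |n|` for all integers `n` and some `c > 0`.  If the cyclic subgroup
generated by `x` has finite index in the centralizer of `x`, then the Hattori-Stallings
coefficient `τ_C(e) = ∑_{y ∈ C} ∑_i e i i y` at the conjugacy class `C` of `x` vanishes.
-/

namespace Vale.Agent.Results.P184.B_UndistortedVanish

open scoped BigOperators

open Vale.Agent.H49

theorem result {G : Type*} [Group G] (q : ℕ) (e : Fin q → Fin q → G → ℂ)
    (hsum : ∀ i j, Summable fun g => ‖e i j g‖)
    (hidem : ∀ i j g, ∑ k, ∑' h, e i k h * e k j (h⁻¹ * g) = e i j g)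
    (x : G) (ℓ : G → ℝ) (hℓ : ∀ g h, ℓ (g * h) ≤ ℓ g + ℓ h)
    (c : ℝ) (hc : 0 < c) (hx : ∀ n : ℤ, c * |(n : ℝ)| ≤ ℓ (x ^ n))
    (hfin : ((Subgroup.zpowers x).subgroupOf (Subgroup.centralizer {x})).FiniteIndex) :
    ∑' y : conjugatesOf x, ∑ i, e i i y = 0 := by
  have h := K1.mtr_eq_zero_of_undistorted x ℓ hℓ c hc hx hfin
    (L1.ofEntries e hsum) (L1.ofEntries_idem e hsum hidem)
  rw [L1.mtr_ofEntries] at h
  exact h

end Vale.Agent.Results.P184.B_UndistortedVanish
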